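import Vale.Agent.P064.Stage

/-! One-step and block inequalities for the doubling process. -/

namespace Vale.Agent.P064

open Finset Real
open scoped Pointwise

noncomputable section

variable {E : Type} [DecidableEq E] {H : Finset E}

namespace Stage

/-- conditional entropy of the set given the history -/
def cA (s : Stage H) : ℝ := ent s.μ (fun t => (s.A t, s.hist t)) - ent s.μ s.hist

/-- `s'` consists of `2 ^ d` copies of `s` -/
structure Ref (s s' : Stage H) (d : ℕ) where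
  ι : Type
  fin : Fintype ι
  card : @Fintype.card ι fin = 2 ^ d
  ϖ : ι → s'.T → s.T
  pres : ∀ i, Pres s'.μ s.μ (ϖ i)
  hist : ∀ i t n, s'.hist t (n + d) = s.hist (ϖ i t) n
  mem : ∀ t e, e ∈ s'.A t ↔ ∃ i, e ∈ s.A (ϖ i t)
  disj : ∀ t i j, i ≠ j → s.A (ϖ i t) ∩ s.A (ϖ j t) ⊆ s'.hist t 0
  ent : 2 ^ d * (s.cA - s.Ψ) + s'.Ψ ≤
    ent s'.μ (fun t => (fun i => s.A (ϖ i t), s'.hist t)) - ent s'.μ s'.hist

instance {s s' : Stage H} {d : ℕ} (r : Ref s s' d) : Fintype r.ι := r.fin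

/-- the trivial refinement -/
def Ref.refl (s : Stage H) : Ref s s 0 where
  ι := Unit
  fin := inferInstance
  card := rfl
  ϖ _ t := t
  pres _ _ := rfl
  hist _ _ _ := rfl
  mem t e := by simp
  disj t i j h := absurd rfl h
  ent := by
    have : P064.ent s.μ (fun t => (s.A t, s.hist t)) ≤
        P064.ent s.μ fun t => (fun _ : Unit => s.A t, s.hist t) :=
      ent_mono s.law fun t t' e =>
        Prod.ext (congrFun (Prod.ext_iff.1 e).1 ()) (Prod.ext_iff.1 e).2
    unfold cA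
    linarith

theorem K_next (s : Stage H) (x : s.next.T) : s.hist (s.p1 x) 0 ⊆ s.next.hist x 0 :=
  subset_inter (s.KA _) (s.hist_p2 x ▸ s.KA _)

/-- one more doubling -/
def Ref.next {s s' : Stage H} {d : ℕ} (r : Ref s s' d) : Ref s s'.next (d + 1) where
  ι := r.ι ⊕ r.ι
  fin := inferInstance
  card := by rw [Fintype.card_sum, r.card, pow_succ, mul_two]
  ϖ i x := Sum.elim (fun i => r.ϖ i (s'.p1 x)) (fun i => r.ϖ i (s'.p2 x)) i
  pres := by
    rintro (i | i) φ
    · exact (s'.pres1 fun t => φ (r.ϖ i t)).trans (r.pres i φ)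
    · exact (s'.pres2 fun t => φ (r.ϖ i t)).trans (r.pres i φ)
  hist := by
    rintro (i | i) x n
    · exact r.hist i (s'.p1 x) n
    · exact (congrFun (s'.hist_p2 x) (n + d)).symm.trans (r.hist i (s'.p2 x) n)
  mem x e := by simp [next_A, r.mem]
  disj := by
    have k : ∀ i t, s.A (r.ϖ i t) ⊆ s'.A t := fun i t e he => (r.mem t e).2 ⟨i, he⟩
    rintro x (i | i) (j | j) h
    · exact (r.disj _ i j fun e => h (congrArg _ e)).trans (s'.K_next x)
    · exact inter_subset_inter (k i _) (k j _)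
    · exact (inter_subset_inter (k i _) (k j _)).trans (inter_comm _ _).subset
    · exact (r.disj _ i j fun e => h (congrArg _ e)).trans (s'.hist_p2 x ▸ s'.K_next x)
  ent := by
    have h1 := ent_two s'.law s'.hist fun t i => s.A (r.ϖ i t)
    have h2 : P064.ent s'.next.μ (fun x => (fun i => s.A (r.ϖ i (s'.p1 x)),
        fun i => s.A (r.ϖ i (s'.p2 x)), s'.hist (s'.p1 x))) ≤ P064.ent s'.next.μ fun x =>
          (fun i => s.A (Sum.elim (fun i => r.ϖ i (s'.p1 x)) (fun i => r.ϖ i (s'.p2 x)) i),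
            s'.next.hist x) :=
      ent_mono s'.next.law fun x x' e => Prod.ext
        (funext fun i => congrFun (Prod.ext_iff.1 e).1 (.inl i)) (Prod.ext
          (funext fun i => congrFun (Prod.ext_iff.1 e).1 (.inr i))
          (funext fun n => congrFun (Prod.ext_iff.1 e).2 (n + 1)))
    have h3 := s'.pot
    have h4 := r.ent
    have h5 := h1.symm.le.trans h2
    rw [pow_succ]
    linarith

variable (Γ : Type) [Group Γ] [Fintype Γ] [MulAction Γ E]

/-- entropy of the moved history -/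
def gh (s : Stage H) : ℝ := entG Γ s.μ s.hist

/-- entropy of the moved set and history -/
def gA (s : Stage H) : ℝ := entG Γ s.μ fun t => (s.A t, s.hist t)

/-- the main potential -/
def Φ (s : Stage H) : ℝ := s.gA Γ - s.gh Γ - s.cA + s.Ψ

variable {Γ}

theorem Φ_nonneg (s : Stage H) : 0 ≤ s.Φ Γ := by
  have h1 := cond_G (Γ := Γ) s.law (X := fun t => (s.A t, s.hist t)) (U := s.hist)
    fun g t t' e => (Prod.ext_iff.1 e).2
  have := s.Ψ_nonneg
  unfold Φ gA gh cA
  linarith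

theorem Ref.star {s s' : Stage H} {d : ℕ} (r : Ref s s' d) :
    s'.Φ Γ ≤ ∑ i, (entG Γ s'.μ (fun t => (s.A (r.ϖ i t), s'.hist t)) - s'.gh Γ) -
      2 ^ d * (s.cA - s.Ψ) := by
  have h1 := cond_G (Γ := Γ) s'.law (X := fun t => (fun i => s.A (r.ϖ i t), s'.hist t))
    (U := fun t => (s'.A t, s'.hist t)) fun g t t' e => by
      refine Prod.ext (Finset.ext fun x => ?_) (Prod.ext_iff.1 e).2
      have e1 : ∀ i, g • s.A (r.ϖ i t) = s.A (r.ϖ i t') := congrFun (Prod.ext_iff.1 e).1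
      simp only [Prod.smul_mk, ← inv_smul_mem_iff, r.mem, ← e1]
  have h2 : entG Γ s'.μ (fun t => (fun i => s.A (r.ϖ i t), s'.hist t)) - s'.gh Γ ≤
      ∑ i, (entG Γ s'.μ (fun t => (s.A (r.ϖ i t), s'.hist t)) - s'.gh Γ) :=
    subadd (law_G Γ s'.law) (fun i x => x.1 • s.A (r.ϖ i x.2)) fun x => x.1 • s'.hist x.2
  have h3 := r.ent
  unfold Φ gA cA gh at *
  linarith

theorem one_aux (s : Stage H) (p : s.next.T → s.T) (hp : Pres s.next.μ s.μ p)
    (hh : ∀ x, s.hist (p x) = s.hist (s.p1 x)) (hK : ∀ x, s.next.hist x 0 ⊆ s.A (p x))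
    {J : ℝ} (hJ : 0 < J) : entG Γ s.next.μ (fun x => (s.A (p x), s.next.hist x)) ≤
      s.gA Γ + (s.next.κ - s.κ) * log J + s.a / J := by
  have hK' : ∀ x, s.hist (p x) 0 ⊆ s.next.hist x 0 := fun x => hh x ▸ s.K_next x
  have h1 := entG_subset (Γ := Γ) s.next.law (fun x => s.next.hist x 0 \ s.hist (p x) 0)
    (fun x => s.A (p x) \ s.hist (p x) 0) (fun x => (s.A (p x), s.hist (p x)))
    (fun x => sdiff_subset_sdiff (hK x) subset_rfl) (fun g x x' e => by
      have e1 : g • s.A (p x) = s.A (p x') := (Prod.ext_iff.1 e).1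
      have e2 : g • s.hist (p x) 0 = s.hist (p x') 0 := congrFun (Prod.ext_iff.1 e).2 0
      simp only [smul_finset_sdiff, e1, e2]) hJ
  have h2 : entG Γ s.next.μ (fun x => (s.A (p x), s.next.hist x)) ≤ entG Γ s.next.μ
      fun x => (s.next.hist x 0 \ s.hist (p x) 0, s.A (p x), s.hist (p x)) := by
    refine entG_mono s.next.law fun g x x' e => ?_
    have e0 : g • (s.next.hist x 0 \ s.hist (p x) 0) = s.next.hist x' 0 \ s.hist (p x') 0 :=
      (Prod.ext_iff.1 e).1
    have e1 : g • s.A (p x) = s.A (p x') := (Prod.ext_iff.1 (Prod.ext_iff.1 e).2).1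
    have e2 : g • s.hist (p x) = s.hist (p x') := (Prod.ext_iff.1 (Prod.ext_iff.1 e).2).2
    refine Prod.ext e1 (funext fun n => ?_)
    cases n with
    | zero =>
      show g • s.next.hist x 0 = s.next.hist x' 0
      rw [← sdiff_union_of_subset (hK' x), ← sdiff_union_of_subset (hK' x'), smul_finset_union,
        e0, ← e2]
      rfl
    | succ n =>
      show g • s.hist (s.p1 x) n = s.hist (s.p1 x') n
      rw [← hh, ← hh]
      exact congrFun e2 n
  have h3 : entG Γ s.next.μ (fun x => (s.A (p x), s.hist (p x))) = s.gA Γ :=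
    hp.entG Γ fun t => (s.A t, s.hist t)
  have h4 : ∑ x, s.next.μ x * ((s.next.hist x 0 \ s.hist (p x) 0).card * log J +
      (s.A (p x) \ s.hist (p x) 0).card / J) = (s.next.κ - s.κ) * log J + s.a / J := by
    rw [κ, κ, a, ← hp fun t => (s.hist t 0).card, ← hp fun t => (s.A t \ s.hist t 0).card,
      ← sum_sub_distrib, sum_mul, sum_div, ← sum_add_distrib]
    refine sum_congr rfl fun x _ => ?_
    rw [card_sdiff_of_subset (hK' x), Nat.cast_sub (card_le_card (hK' x))]
    ring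
  linarith

/-- the one-step inequality -/
theorem one_step (s : Stage H) {J : ℝ} (hJ : 0 < J) : s.next.Φ Γ ≤
    2 * s.Φ Γ - 2 * (s.next.gh Γ - s.gh Γ) + 2 * ((s.next.κ - s.κ) * log J + s.a / J) := by
  have h1 := (Ref.refl s).next.star (Γ := Γ)
  have h2 := s.one_aux (Γ := Γ) s.p1 s.pres1 (fun _ => rfl) (fun _ => inter_subset_left) hJ
  have h3 := s.one_aux (Γ := Γ) s.p2 s.pres2 s.hist_p2 (fun _ => inter_subset_right) hJ
  have h4 : ∑ i, (entG Γ s.next.μ (fun t => (s.A ((Ref.refl s).next.ϖ i t), s.next.hist t)) -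
      s.next.gh Γ) = (entG Γ s.next.μ (fun x => (s.A (s.p1 x), s.next.hist x)) - s.next.gh Γ) +
      (entG Γ s.next.μ (fun x => (s.A (s.p2 x), s.next.hist x)) - s.next.gh Γ) :=
    (Fintype.sum_sum_type (α₁ := Unit) (α₂ := Unit) _).trans
      (congrArg₂ (· + ·) (Fintype.sum_unique _) (Fintype.sum_unique _))
  rw [h4] at h1
  unfold Φ at *
  norm_num at h1
  linarith

/-- the block inequality -/
theorem Ref.block {s s' : Stage H} {d : ℕ} (r : Ref s s' d) {l ε : ℝ}
    (host : ∀ B ⊆ H, ∀ V ⊆ B, V.card * l - ε * B.card ≤ -log (nu Γ B V)) :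
    ∃ v : ℝ, v = 2 ^ d * (s.a + s.κ) - s'.a ∧ 0 ≤ v ∧ s'.Φ Γ ≤
      2 ^ d * (s.Φ Γ + s.gh Γ + ε * (s.a + s.κ)) - v * (l - d * log 2 - 1) := by
  classical
  set V : r.ι → s'.T → Finset E := fun i t => s.A (r.ϖ i t) ∩ s'.hist t 0 with hV
  have hb : (0 : ℝ) < 2 ^ d := by positivity
  have hA : ∀ i, ∑ t, s'.μ t * (s.A (r.ϖ i t)).card = s.a + s.κ := fun i =>
    (r.pres i fun t => (s.A t).card).trans s.a_add_κ.symm
  have h1 : ∀ i, entG Γ s'.μ (fun t => (s.A (r.ϖ i t), s'.hist t)) - s'.gh Γ ≤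
      s.gA Γ + ε * (s.a + s.κ) + s'.κ / 2 ^ d -
        (∑ t, s'.μ t * (V i t).card) * (l - d * log 2) := by
    intro i
    have k1 := submodG (Γ := Γ) s'.law (X := fun t => (V i t, s.A (r.ϖ i t)))
      (Y := fun t => (V i t, s'.hist t)) (U := V i) (V := fun t => (s.A (r.ϖ i t), s'.hist t))
      (fun g t t' e => (Prod.ext_iff.1 e).1) (fun g t t' e => (Prod.ext_iff.1 e).1)
      fun g t t' e => Prod.ext (Prod.ext_iff.1 (Prod.ext_iff.1 e).1).2
        (Prod.ext_iff.1 (Prod.ext_iff.1 e).2).2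
    have k2 := entG_info (Γ := Γ) s'.law (V i) (fun t => s.A (r.ϖ i t))
      fun t => inter_subset_left
    have k3 : entG Γ s'.μ (fun t => s.A (r.ϖ i t)) ≤ s.gA Γ :=
      ((r.pres i).entG Γ s.A).le.trans (entG_mono s.law fun g t t' e => (Prod.ext_iff.1 e).1)
    have k4 := entG_subset (Γ := Γ) s'.law (V i) (fun t => s'.hist t 0) s'.hist
      (fun t => inter_subset_right) (fun g t t' e => congrFun e 0) hb
    have k5 : ∑ t, s'.μ t * ((V i t).card * l - ε * (s.A (r.ϖ i t)).card) ≤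
        -∑ t, s'.μ t * log (nu Γ (s.A (r.ϖ i t)) (V i t)) := by
      rw [← sum_neg_distrib]
      refine sum_le_sum fun t _ => ?_
      rw [← mul_neg]
      exact mul_le_mul_of_nonneg_left (host _ (s.AH _) _ inter_subset_left) (s'.law.pos t).le
    simp only [mul_sub, sum_sub_distrib, ← mul_assoc, ← sum_mul, mul_comm (s'.μ _) ε] at k5
    simp only [mul_assoc ε, ← mul_sum, hA] at k5
    simp only [mul_add, sum_add_distrib, ← mul_assoc, ← sum_mul, log_pow, ← mul_div_assoc,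
      ← sum_div] at k4
    have k6 : s'.κ = ∑ t, s'.μ t * (s'.hist t 0).card := rfl
    rw [← k6] at k4
    unfold gh
    linarith
  have h2 : ∑ i, ∑ t, s'.μ t * (V i t).card = 2 ^ d * (s.a + s.κ) - s'.a := by
    have k1 : ∑ i, ∑ t, s'.μ t * (s.A (r.ϖ i t)).card = 2 ^ d * (s.a + s.κ) := by
      simp [hA, r.card, mul_add]
    rw [← k1, sum_comm, sum_comm (γ := r.ι), a, ← sum_sub_distrib]
    refine sum_congr rfl fun t _ => ?_
    rw [← mul_sum, ← mul_sum, ← mul_sub]
    congr 1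
    have k2 : s'.A t \ s'.hist t 0 = univ.biUnion fun i => s.A (r.ϖ i t) \ s'.hist t 0 := by
      ext e
      simp [r.mem]
    rw [k2, card_biUnion, Nat.cast_sum, ← sum_sub_distrib]
    · refine sum_congr rfl fun i _ => ?_
      rw [← card_sdiff_add_card_inter (s.A (r.ϖ i t)) (s'.hist t 0)]
      push_cast
      ring
    · intro i _ j _ hij
      refine disjoint_left.2 fun e h1 h2 => (mem_sdiff.1 h1).2 (r.disj t i j hij ?_)
      exact mem_inter.2 ⟨(mem_sdiff.1 h1).1, (mem_sdiff.1 h2).1⟩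
  have h3 : s'.κ ≤ ∑ i, ∑ t, s'.μ t * (V i t).card := by
    rw [sum_comm]
    refine sum_le_sum fun t _ => ?_
    rw [← mul_sum]
    refine mul_le_mul_of_nonneg_left ?_ (s'.law.pos t).le
    have : s'.hist t 0 ⊆ univ.biUnion fun i => V i t := fun e he => by
      obtain ⟨i, hi⟩ := (r.mem t e).1 (s'.KA t he)
      exact mem_biUnion.2 ⟨i, mem_univ _, mem_inter.2 ⟨hi, he⟩⟩
    exact_mod_cast (card_le_card this).trans card_biUnion_le
  refine ⟨_, rfl, h2 ▸ s'.κ_nonneg.trans h3, ?_⟩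
  have h4 := (r.star (Γ := Γ)).trans (sub_le_sub_right (sum_le_sum fun i _ => h1 i) _)
  rw [sum_sub_distrib, ← sum_mul, h2, sum_const, card_univ, r.card, nsmul_eq_mul] at h4
  rw [h2] at h3
  have h5 : (2 : ℝ) ^ d * (s'.κ / 2 ^ d) = s'.κ := mul_div_cancel₀ _ hb.ne'
  push_cast at h4
  unfold Φ at h4 ⊢
  nlinarith

end Stage

end

end Vale.Agent.P064
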