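import Vale.Agent.P064.Block

/-! From the stage inequalities to the spread bound. -/

namespace Vale.Agent.P064

open Finset Real
open scoped Pointwise

noncomputable section

section seq

variable {a k P s : ℕ → ℝ} {Λ L J : ℝ}

theorem seq_sum (hrec : ∀ i, a (i + 1) + 2 * k (i + 1) = a i + k i) (m : ℕ) :
    ∑ i ∈ range m, k (i + 1) + a m + k m = a 0 + k 0 := by
  induction m with
  | zero => simp
  | succ m ih => rw [sum_range_succ]; linarith [hrec m]

theorem seq_le (hk : ∀ i, 0 ≤ k i) (hrec : ∀ i, a (i + 1) + 2 * k (i + 1) = a i + k i) (m : ℕ) :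
    a m + k m ≤ a 0 + k 0 := by
  linarith [seq_sum hrec m, sum_nonneg fun i (_ : i ∈ range m) => hk (i + 1)]

theorem seq_one (hk : ∀ i, 0 ≤ k i) (hk0 : k 0 = 0) (hs0 : s 0 = 0) (hJ : 0 < J)
    (hrec : ∀ i, a (i + 1) + 2 * k (i + 1) = a i + k i)
    (hone : ∀ i, P (i + 1) ≤ P i - (2 * s (i + 1) - s i) - (2 * k (i + 1) - k i) * (Λ - L) +
      a i / J) (m : ℕ) :
    P m + ∑ i ∈ range m, s (i + 1) + s m + (a 0 - a m) * (Λ - L) ≤ P 0 + m * (a 0 / J) := by
  induction m with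
  | zero => simp [hs0]
  | succ m ih =>
    have h1 : a m / J ≤ a 0 / J :=
      div_le_div_of_nonneg_right (by linarith [seq_le hk hrec m, hk m]) hJ.le
    have h2 : 2 * k (m + 1) - k m = a m - a (m + 1) := by linarith [hrec m]
    have h3 := hone m
    rw [h2] at h3
    rw [sum_range_succ]
    push_cast
    linarith

theorem seq_tel {G e : ℕ → ℝ} {d : ℕ} (h : ∀ i, G i ≤ G (i + d) + e i) (m : ℕ) :
    ∑ o ∈ range d, G (1 + o) ≤ ∑ o ∈ range d, G (m + 1 + o) + ∑ i ∈ range m, e (i + 1) := by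
  induction m with
  | zero => simp
  | succ m ih =>
    have h1 := sum_range_succ (fun o => G (m + 1 + o)) d
    have h2 := sum_range_succ' (fun o => G (m + 1 + o)) d
    have h3 : ∑ o ∈ range d, G (m + 1 + (o + 1)) = ∑ o ∈ range d, G (m + 1 + 1 + o) :=
      sum_congr rfl fun o _ => by congr 1; ring
    have h4 := h (m + 1)
    rw [sum_range_succ fun i => e (i + 1)]
    simp only [add_zero] at h2
    linarith

end seq

theorem ent_le_log {T α : Type} [Fintype T] [Fintype α] {μ : T → ℝ} (h : Law μ) (X : T → α) :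
    ent μ X ≤ log (Fintype.card α) := by
  obtain ⟨t₀⟩ := h.nonempty
  have : Nonempty α := ⟨X t₀⟩
  have hc : (0 : ℝ) < Fintype.card α := by exact_mod_cast Fintype.card_pos
  have h1 := ent_le_code h X (fun _ => ()) (fun _ _ => (Fintype.card α : ℝ)⁻¹)
    (fun _ => inv_pos.2 hc) fun _ S _ => by
      rw [sum_const, nsmul_eq_mul, mul_inv_le_iff₀ hc, one_mul]
      exact_mod_cast card_le_univ S
  rw [ent_const h (X := fun _ => ()) fun _ _ => rfl, ← sum_mul, h.sum, log_inv] at h1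
  have h2 : ent μ X ≤ ent μ fun t => (X t, ()) := ent_mono h fun s t e => (Prod.ext_iff.1 e).1
  linarith

variable {E : Type} [DecidableEq E] {H : Finset E}
variable (Γ : Type) [Group Γ] [Fintype Γ] [MulAction Γ E]

namespace Stage

/-- a uniformly random translate of `F` inside `H` -/
def init {F : Finset E} (hF : F ⊆ H) : Stage H where
  T := {g : Γ // g • F ⊆ H}
  fin := inferInstance
  μ _ := (Fintype.card {g : Γ // g • F ⊆ H} : ℝ)⁻¹
  law := by
    have : Nonempty {g : Γ // g • F ⊆ H} := ⟨⟨1, by simpa using hF⟩⟩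
    have hc : (0 : ℝ) < Fintype.card {g : Γ // g • F ⊆ H} := by exact_mod_cast Fintype.card_pos
    exact ⟨fun _ => inv_pos.2 hc, by
      rw [sum_const, card_univ, nsmul_eq_mul, mul_inv_cancel₀ hc.ne']⟩
  hist _ _ := ∅
  A t := t.1 • F
  KA _ := empty_subset _
  AH t := t.2

variable {F : Finset E} (hF : F ⊆ H)

theorem init_κ : (init Γ hF).κ = 0 := by simp [κ, init]

theorem init_a : (init Γ hF).a = F.card := by
  have : ∀ t, ((init Γ hF).A t \ (init Γ hF).hist t 0).card = F.card := fun t => by simp [init]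
  simp only [a, this, ← sum_mul, (init Γ hF).law.sum, one_mul]

theorem init_gh : (init Γ hF).gh Γ = 0 :=
  ent_const (law_G Γ (init Γ hF).law) fun x y => funext fun n => by simp [init]

theorem init_Φ : (init Γ hF).Φ Γ ≤ -log (nu Γ H F) + 15 * F.card := by
  classical
  have h0 := (init Γ hF).law
  have h1 := cond_G (Γ := Γ) h0 (X := fun t => (t.1 : Γ))
    (U := fun t => ((init Γ hF).A t, (init Γ hF).hist t)) fun g t t' e =>
      Prod.ext (by
        show g • t.1 • F = t'.1 • F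
        rw [smul_smul]
        exact congrArg (· • F) e) (funext fun n => by simp [init])
  have h2 : entG Γ (init Γ hF).μ (fun t => (t.1 : Γ)) ≤ log (Fintype.card Γ) :=
    ent_le_log (law_G Γ h0) _
  have h3 : ent (init Γ hF).μ (fun t => (t.1 : Γ)) = log (Fintype.card {g : Γ // g • F ⊆ H}) := by
    have : ∀ t : (init Γ hF).T, pr (init Γ hF).μ (fun t => (t.1 : Γ)) t.1 =
        (Fintype.card {g : Γ // g • F ⊆ H} : ℝ)⁻¹ := fun t => by
      rw [pr, sum_eq_single t (fun t' _ h => if_neg fun e => h (Subtype.ext e)) (by simp),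
        if_pos rfl]
      rfl
    simp only [ent, this, ← sum_mul, h0.sum, log_inv, one_mul, neg_neg]
  have h4 : ent (init Γ hF).μ (init Γ hF).hist = 0 := ent_const h0 fun _ _ => rfl
  have h5 : log (nu Γ H F) = log (Fintype.card {g : Γ // g • F ⊆ H}) - log (Fintype.card Γ) := by
    have : Nonempty {g : Γ // g • F ⊆ H} := ⟨⟨1, by simpa using hF⟩⟩
    rw [nu, sum_boole, ← Fintype.card_subtype, log_div (by exact_mod_cast Fintype.card_pos.ne')
      (cardG_pos Γ).ne']
  have h6 := (init Γ hF).Ψ_le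
  rw [init_a] at h6
  have h7 := init_gh Γ hF
  unfold Φ gA cA
  linarith

/-- iterated doubling -/
def iter (s : Stage H) : ℕ → Stage H
  | 0 => s
  | n + 1 => (iter s n).next

/-- refinement data along the iteration -/
def iterRef (s : Stage H) (i : ℕ) : ∀ d, Ref (s.iter i) (s.iter (i + d)) d
  | 0 => Ref.refl _
  | d + 1 => (iterRef s i d).next

variable {Γ} {Λ : ℝ}

theorem gh_ge (hH : ∀ U ⊆ H, U.card * Λ ≤ -log (nu Γ U U)) (s : Stage H) :
    s.κ * Λ ≤ s.gh Γ := by
  refine le_trans ?_ ((entG_ge (Γ := Γ) s.law fun t => s.hist t 0).trans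
    (entG_mono s.law (X := s.hist) fun g t t' e => congrFun e 0))
  rw [κ, sum_mul, ← sum_neg_distrib]
  refine sum_le_sum fun t _ => ?_
  rw [← mul_neg, mul_assoc]
  exact mul_le_mul_of_nonneg_left (hH _ ((s.KA t).trans (s.AH t))) (s.law.pos t).le

end Stage

open Stage

variable {Γ} {Λ : ℝ} {F : Finset E}

theorem exists_seq (hH : ∀ U ⊆ H, U.card * Λ ≤ -log (nu Γ U U)) (hF : F ⊆ H) :
    ∃ a k P s : ℕ → ℝ, a 0 = F.card ∧ k 0 = 0 ∧ s 0 = 0 ∧ P 0 ≤ -log (nu Γ H F) + 15 * F.card ∧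
      (∀ i, 0 ≤ a i ∧ a i ≤ H.card / 2 ^ i) ∧ (∀ i, 0 ≤ k i) ∧ (∀ i, 0 ≤ P i) ∧ (∀ i, 0 ≤ s i) ∧
      (∀ i, a (i + 1) + 2 * k (i + 1) = a i + k i) ∧
      (∀ J : ℝ, 0 < J → ∀ i, P (i + 1) ≤ P i - (2 * s (i + 1) - s i) -
        (2 * k (i + 1) - k i) * (Λ - log J) + a i / J) ∧
      ∀ l ε : ℝ, (∀ B ⊆ H, ∀ V ⊆ B, V.card * l - ε * B.card ≤ -log (nu Γ B V)) → ∀ i d,
        0 ≤ a i + k i - a (i + d) ∧ P (i + d) ≤ P i + s i + k i * Λ + ε * (a i + k i) -
          (a i + k i - a (i + d)) * (l - d * log 2 - 1) := by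
  set S := (init Γ hF).iter with hS
  refine ⟨fun i => (S i).a / 2 ^ i, fun i => (S i).κ / 2 ^ i, fun i => (S i).Φ Γ / 2 ^ i,
    fun i => ((S i).gh Γ - (S i).κ * Λ) / 2 ^ i, ?_, ?_, ?_, ?_, fun i => ⟨?_, ?_⟩, fun i => ?_,
    fun i => ?_, fun i => ?_, fun i => ?_, fun J hJ i => ?_, fun l ε host i d => ?_⟩
  · simpa [hS, iter] using init_a Γ hF
  · simpa [hS, iter] using init_κ Γ hF
  · simp [hS, iter, init_κ, init_gh]
  · simpa [hS, iter] using init_Φ Γ hF
  · exact div_nonneg (S i).a_nonneg (by positivity)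
  · exact div_le_div_of_nonneg_right (S i).a_le (by positivity)
  · exact div_nonneg (S i).κ_nonneg (by positivity)
  · exact div_nonneg (S i).Φ_nonneg (by positivity)
  · exact div_nonneg (sub_nonneg.2 (gh_ge hH _)) (by positivity)
  · have h : (S (i + 1)).a + 2 * (S (i + 1)).κ = _ := (S i).a_next
    field_simp
    linear_combination 2 ^ i * h
  · have h : (S (i + 1)).Φ Γ ≤ 2 * (S i).Φ Γ - 2 * ((S (i + 1)).gh Γ - (S i).gh Γ) +
      2 * (((S (i + 1)).κ - (S i).κ) * log J + (S i).a / J) := (S i).one_step hJ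
    refine (div_le_div_of_nonneg_right h (by positivity)).trans (le_of_eq ?_)
    field_simp
    ring
  · obtain ⟨v, hv, h0, h⟩ := ((init Γ hF).iterRef i d).block host
    have e : (S i).a / 2 ^ i + (S i).κ / 2 ^ i - (S (i + d)).a / 2 ^ (i + d) = v / 2 ^ (i + d) := by
      rw [hv]
      field_simp
      ring
    beta_reduce
    rw [e]
    refine ⟨by positivity, (div_le_div_of_nonneg_right h (by positivity)).trans (le_of_eq ?_)⟩
    field_simp
    ring

theorem coreA (hH : ∀ U ⊆ H, U.card * Λ ≤ -log (nu Γ U U)) (hΛ : 0 ≤ Λ) {J : ℕ} (hJ : 1 ≤ J)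
    (hF : F ⊆ H) : F.card * (Λ - log J - 16) - Λ / 2 ^ J * H.card ≤ -log (nu Γ H F) := by
  obtain ⟨a, k, P, s, h1, h2, h3, h4, h5, h6, h7, h8, h9, h10, -⟩ := exists_seq hH hF
  have hJ' : (1 : ℝ) ≤ J := by exact_mod_cast hJ
  have h := seq_one h6 h2 h3 (by linarith) h9 (h10 J (by linarith)) J
  have k1 := sum_nonneg fun i (_ : i ∈ range J) => h8 (i + 1)
  have k2 := mul_nonneg (h5 J).1 (log_nonneg hJ')
  have k3 := mul_le_mul_of_nonneg_right (h5 J).2 hΛ
  rw [mul_div_cancel₀ _ (by linarith), h1] at h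
  have k4 : (H.card : ℝ) / 2 ^ J * Λ = Λ / 2 ^ J * H.card := by ring
  nlinarith [h7 J, h8 J]

theorem coreB (hH : ∀ U ⊆ H, U.card * Λ ≤ -log (nu Γ U U)) (hΛ : 0 ≤ Λ) {J J' : ℕ} (d : ℕ)
    (hJ : 1 ≤ J) (hJ' : 1 ≤ J') (h₁ : Λ / 2 ^ J' * J ≤ 1) (h₂ : H.card * Λ ≤ 2 ^ J)
    (hF : F ⊆ H) (hne : F.Nonempty) :
    F.card * (Λ - (2 * (log J' + 17 + d * log 2) + 18 + log J / (d + 1))) ≤ -log (nu Γ H F) := by
  obtain ⟨a, k, P, s, h1, h2, h3, h4, h5, h6, h7, h8, h9, h10, h11⟩ := exists_seq hH hF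
  have hJ1 : (1 : ℝ) ≤ J := by exact_mod_cast hJ
  have hf : (1 : ℝ) ≤ F.card := by exact_mod_cast hne.card_pos
  set ε := Λ / 2 ^ J' with hε
  set M := log J' + 17 + d * log 2 with hM
  have hε0 : 0 ≤ ε := by positivity
  have hε1 : ε ≤ 1 := by nlinarith
  have hl2 := log_nonneg (show (1 : ℝ) ≤ 2 by norm_num)
  have hM0 : 0 ≤ M := by
    have := log_nonneg (show (1 : ℝ) ≤ J' by exact_mod_cast hJ')
    positivity
  have host := h11 (Λ - log J' - 16) ε fun B hB V hV =>
    coreA (fun U hU => hH U (hU.trans hB)) hΛ hJ' hV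
  have hak : ∀ i, a i + k i ≤ F.card := fun i => by simpa [h1, h2] using seq_le h6 h9 i
  set G : ℕ → ℝ := fun i => a i * (Λ - M) - P i with hG
  have g1 : ∀ i, ∀ o ≤ d, G i ≤ G (i + o) + (s i + k i * M + ε * F.card) := by
    intro i o ho
    obtain ⟨k1, k2⟩ := host i o
    have k3 : (o : ℝ) * log 2 ≤ d * log 2 := by gcongr
    have k4 := mul_le_mul_of_nonneg_left
      (show Λ - M ≤ Λ - log J' - 16 - o * log 2 - 1 by linarith) k1
    have k5 := mul_le_mul_of_nonneg_left (hak i) hε0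
    simp only [hG]
    linarith
  have g2 : ∀ j, J ≤ j → a j * Λ ≤ F.card := by
    intro j hj
    refine (mul_le_mul_of_nonneg_right (h5 j).2 hΛ).trans (le_trans ?_ hf)
    rw [div_mul_eq_mul_div, div_le_one (by positivity)]
    exact h₂.trans (pow_le_pow_right₀ (by norm_num) hj)
  have g3 := seq_tel (fun i => g1 i d le_rfl) J
  have g4 : ∑ o ∈ range d, G (J + 1 + o) ≤ d * F.card := by
    refine (sum_le_card_nsmul _ _ (F.card : ℝ) fun o _ => ?_).trans (by simp)
    have := g2 (J + 1 + o) (by omega)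
    have := mul_nonneg (h5 (J + 1 + o)).1 hM0
    have := h7 (J + 1 + o)
    simp only [hG]
    linarith
  have g5 : d * (G 0 - F.card) ≤ ∑ o ∈ range d, G (1 + o) := by
    refine le_trans (by simp) (card_nsmul_le_sum _ _ (G 0 - F.card) fun o ho => ?_)
    have := g1 0 (1 + o) (by have := mem_range.1 ho; omega)
    rw [h2, h3, zero_add] at this
    nlinarith
  have g6 : ∑ i ∈ range J, (s (i + 1) + k (i + 1) * M + ε * F.card) ≤
      ∑ i ∈ range J, s (i + 1) + F.card * M + F.card := by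
    have k1 := seq_sum h9 J
    rw [h1, h2] at k1
    have k2 : ∑ i ∈ range J, k (i + 1) ≤ F.card := by linarith [(h5 J).1, h6 J]
    have k3 := mul_le_mul_of_nonneg_right k2 hM0
    simp only [sum_add_distrib, ← sum_mul, sum_const, card_range, nsmul_eq_mul]
    nlinarith
  have g7 := seq_one h6 h2 h3 (by linarith) h9 (h10 J (by linarith)) J
  rw [mul_div_cancel₀ _ (by linarith), h1] at g7
  have k2 := mul_nonneg (h5 J).1 (log_nonneg hJ1)
  have g8 : G 0 ≤ F.card * log J + 2 * F.card - ∑ i ∈ range J, s (i + 1) := by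
    have := g2 J le_rfl
    have := mul_nonneg (Nat.cast_nonneg F.card) hM0
    simp only [hG, h1]
    nlinarith [h7 J, h8 J]
  have hd : (0 : ℝ) ≤ d := Nat.cast_nonneg d
  have g9 : G 0 ≤ F.card * (log J / (d + 1)) + F.card * (M + 3) := by
    rw [← mul_div_assoc, ← sub_le_iff_le_add, le_div_iff₀ (by positivity)]
    nlinarith [mul_nonneg hd (mul_nonneg (Nat.cast_nonneg F.card) hM0),
      mul_nonneg hd (Nat.cast_nonneg F.card)]
  simp only [hG, h1] at g9
  linarith

end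

end Vale.Agent.P064
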