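import Mathlib

namespace Vale.Agent.P064

open Finset

/-- expectation of `φ` over the random graph `G(n,p)` -/
noncomputable def gnpE (n : ℕ) (p : ℝ) (φ : SimpleGraph (Fin n) → ℝ) : ℝ :=
  ∑ G : SimpleGraph (Fin n),
    p ^ G.edgeSet.ncard * (1 - p) ^ (n.choose 2 - G.edgeSet.ncard) * φ G

/-- the threshold for containing a copy of `H` -/
noncomputable def pc (n : ℕ) {V : Type} (H : SimpleGraph V) : ℝ :=
  sInf {p | p ∈ Set.Icc (0 : ℝ) 1 ∧
    1 / 2 ≤ gnpE n p fun G => if 0 < G.copyCount H then 1 else 0}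

/-- the expectation threshold -/
noncomputable def pE (n : ℕ) {V : Type} (H : SimpleGraph V) : ℝ :=
  sInf {p | p ∈ Set.Icc (0 : ℝ) 1 ∧
    ∀ F : H.Subgraph, 1 / 2 ≤ gnpE n p fun G => (G.copyCount F.coe : ℝ)}

end Vale.Agent.P064
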