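import Mathlib

/-! Elementary Shannon entropy on finite probability spaces. -/

namespace Vale.Agent.P064

open Finset Real

noncomputable section

variable {T T' α β γ δ : Type} [Fintype T] [Fintype T']

/-- strictly positive probability weights -/
structure Law (μ : T → ℝ) : Prop where
  pos : ∀ t, 0 < μ t
  sum : ∑ t, μ t = 1

open Classical in
/-- probability of a value -/
def pr (μ : T → ℝ) (X : T → α) (a : α) : ℝ := ∑ t, if X t = a then μ t else 0

/-- entropy -/
def ent (μ : T → ℝ) (X : T → α) : ℝ := -∑ t, μ t * log (pr μ X (X t))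

variable {μ : T → ℝ}

theorem Law.nonempty (h : Law μ) : Nonempty T := by
  by_contra h'
  have := h.sum
  rw [not_nonempty_iff] at h'
  simp at this

theorem pr_nonneg (h : Law μ) (X : T → α) (a : α) : 0 ≤ pr μ X a :=
  sum_nonneg fun t _ => by split_ifs; exacts [(h.pos t).le, le_rfl]

theorem pr_le_pr (h : Law μ) {X : T → α} {U : T → β} {a : α} {b : β}
    (hh : ∀ t, X t = a → U t = b) : pr μ X a ≤ pr μ U b := by
  refine sum_le_sum fun t _ => ?_
  by_cases h1 : X t = a
  · rw [if_pos h1, if_pos (hh t h1)]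
  · rw [if_neg h1]; split_ifs; exacts [(h.pos t).le, le_rfl]

theorem pr_pos (h : Law μ) (X : T → α) (t : T) : 0 < pr μ X (X t) := by
  classical
  refine lt_of_lt_of_le (h.pos t) ?_
  have := single_le_sum (f := fun s => if X s = X t then μ s else 0)
    (fun s _ => by split_ifs; exacts [(h.pos s).le, le_rfl]) (mem_univ t)
  simp only [if_true] at this
  convert this
  rfl

theorem ent_mono (h : Law μ) {X : T → α} {U : T → β} (hh : ∀ s t, X s = X t → U s = U t) :
    ent μ U ≤ ent μ X := by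
  refine neg_le_neg (sum_le_sum fun t _ => mul_le_mul_of_nonneg_left ?_ (h.pos t).le)
  exact log_le_log (pr_pos h X t) (pr_le_pr h fun s hs => hh s t hs)

theorem ent_congr (h : Law μ) {X : T → α} {U : T → β} (hh : ∀ s t, X s = X t ↔ U s = U t) :
    ent μ X = ent μ U :=
  le_antisymm (ent_mono h fun s t => (hh s t).2) (ent_mono h fun s t => (hh s t).1)

theorem ent_const (h : Law μ) {X : T → α} (hh : ∀ s t, X s = X t) : ent μ X = 0 := by
  have : ∀ t, pr μ X (X t) = 1 := fun t => by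
    rw [← h.sum]; exact sum_congr rfl fun s _ => if_pos (hh s t)
  simp [ent, this]

theorem sum_eq_sum_image [DecidableEq α] (X : T → α) (φ : α → ℝ) :
    ∑ t, μ t * φ (X t) = ∑ a ∈ univ.image X, pr μ X a * φ a := by
  simp only [pr, sum_mul]
  rw [sum_comm]
  refine sum_congr rfl fun t _ => ?_
  rw [sum_eq_single (X t)]
  · simp
  · intro b _ hb
    simp [hb.symm]
  · simp

/-- the coding bound -/
theorem ent_le_code (h : Law μ) (X : T → α) (Y : T → β) (Q : β → α → ℝ)
    (hQ : ∀ t, 0 < Q (Y t) (X t))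
    (hs : ∀ b (s : Finset α), (∀ a ∈ s, ∃ t, X t = a ∧ Y t = b) → ∑ a ∈ s, Q b a ≤ 1) :
    ent μ (fun t => (X t, Y t)) - ent μ Y ≤ -∑ t, μ t * log (Q (Y t) (X t)) := by
  classical
  set Z : T → α × β := fun t => (X t, Y t) with hZ
  have h1 : ∑ t, μ t * (Q (Y t) (X t) * pr μ Y (Y t) / pr μ Z (Z t)) ≤ 1 := by
    rw [sum_eq_sum_image Z fun z => Q z.2 z.1 * pr μ Y z.2 / pr μ Z z]
    have h2 : ∀ z ∈ univ.image Z, pr μ Z z * (Q z.2 z.1 * pr μ Y z.2 / pr μ Z z) =
        Q z.2 z.1 * pr μ Y z.2 := by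
      intro z hz
      obtain ⟨t, -, rfl⟩ := mem_image.1 hz
      have := pr_pos h Z t
      field_simp
    rw [sum_congr rfl h2, ← sum_fiberwise_of_maps_to (s := univ.image Z) (t := univ.image Y)
      (g := Prod.snd) (by
        intro z hz
        obtain ⟨t, -, rfl⟩ := mem_image.1 hz
        exact mem_image_of_mem _ (mem_univ t))]
    have h3 := sum_eq_sum_image (μ := μ) Y fun _ => 1
    simp only [mul_one, h.sum] at h3
    rw [h3]
    refine sum_le_sum fun b _ => ?_
    have h4 : ∑ z ∈ (univ.image Z).filter (fun z => z.2 = b), Q z.2 z.1 * pr μ Y z.2 =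
        (∑ a ∈ ((univ.image Z).filter (fun z => z.2 = b)).image Prod.fst, Q b a) * pr μ Y b := by
      rw [sum_image, sum_mul]
      · exact sum_congr rfl fun z hz => by rw [(mem_filter.1 hz).2]
      · intro z hz z' hz' e
        exact Prod.ext e ((mem_filter.1 hz).2.trans (mem_filter.1 hz').2.symm)
    rw [h4]
    refine mul_le_of_le_one_left (pr_nonneg h _ _) (hs b _ fun a ha => ?_)
    obtain ⟨z, hz, rfl⟩ := mem_image.1 ha
    obtain ⟨hz1, hz2⟩ := mem_filter.1 hz
    obtain ⟨t, -, rfl⟩ := mem_image.1 hz1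
    exact ⟨t, rfl, hz2⟩
  have h5 : ∑ t, μ t * log (Q (Y t) (X t) * pr μ Y (Y t) / pr μ Z (Z t)) ≤
      ∑ t, μ t * (Q (Y t) (X t) * pr μ Y (Y t) / pr μ Z (Z t) - 1) :=
    sum_le_sum fun t _ => mul_le_mul_of_nonneg_left (log_le_sub_one_of_pos
      (div_pos (mul_pos (hQ t) (pr_pos h Y t)) (pr_pos h Z t))) (h.pos t).le
  have h6 : ∀ t, log (Q (Y t) (X t) * pr μ Y (Y t) / pr μ Z (Z t)) =
      log (Q (Y t) (X t)) + log (pr μ Y (Y t)) - log (pr μ Z (Z t)) := fun t => by
    rw [log_div (mul_pos (hQ t) (pr_pos h Y t)).ne' (pr_pos h Z t).ne',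
      log_mul (hQ t).ne' (pr_pos h Y t).ne']
  simp only [h6, mul_sub, mul_add, sum_sub_distrib, sum_add_distrib, mul_one, h.sum] at h5
  unfold ent
  linarith

theorem sum_pr_le (h : Law μ) (X : T → α) (U : T → β) (b : β) (s : Finset α)
    (hs : ∀ t, X t ∈ s → U t = b) : ∑ a ∈ s, pr μ X a ≤ pr μ U b := by
  classical
  simp only [pr]
  rw [sum_comm]
  refine sum_le_sum fun t _ => ?_
  rw [sum_ite_eq]
  by_cases h1 : X t ∈ s
  · rw [if_pos h1, if_pos (hs t h1)]
  · rw [if_neg h1]; split_ifs; exacts [(h.pos t).le, le_rfl]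

/-- submodularity -/
theorem submod (h : Law μ) {X : T → α} {Y : T → β} {U : T → γ} {V : T → δ}
    (h1 : ∀ s t, X s = X t → U s = U t) (h2 : ∀ s t, Y s = Y t → U s = U t)
    (h3 : ∀ s t, X s = X t → Y s = Y t → V s = V t) :
    ent μ V + ent μ U ≤ ent μ X + ent μ Y := by
  obtain ⟨t₀⟩ := h.nonempty
  obtain ⟨φ, hφ⟩ : ∃ φ : β → γ, ∀ t, φ (Y t) = U t :=
    ⟨Function.extend Y U fun _ => U t₀, fun t =>
      Function.FactorsThrough.extend_apply (fun s t => h2 s t) _ t⟩
  have h4 := ent_le_code h X Y (fun b a => pr μ X a / pr μ U (φ b))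
    (fun t => div_pos (pr_pos h X t) (hφ t ▸ pr_pos h U t)) fun b s hs => by
      rw [← sum_div]
      refine div_le_one_of_le₀ (sum_pr_le h X U _ s fun t ht => ?_) (pr_nonneg h _ _)
      obtain ⟨t', e1, e2⟩ := hs _ ht
      rw [← h1 t' t e1, ← e2, hφ]
  have h5 : ent μ V ≤ ent μ fun t => (X t, Y t) :=
    ent_mono h fun s t e => h3 s t (congrArg Prod.fst e) (congrArg Prod.snd e)
  have h6 : ∀ t, log (pr μ X (X t) / pr μ U (φ (Y t))) =
      log (pr μ X (X t)) - log (pr μ U (U t)) := fun t => by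
    rw [hφ, log_div (pr_pos h X t).ne' (pr_pos h U t).ne']
  simp only [h6, mul_sub, sum_sub_distrib] at h4
  unfold ent at *
  linarith

/-- conditional subadditivity -/
theorem subadd (h : Law μ) {ι : Type} [Fintype ι] (X : ι → T → α) (Y : T → β) :
    ent μ (fun t => (fun i => X i t, Y t)) - ent μ Y ≤
      ∑ i, (ent μ (fun t => (X i t, Y t)) - ent μ Y) := by
  classical
  have key : ∀ S : Finset ι, ent μ (fun t => (fun i => if i ∈ S then some (X i t) else none, Y t))
      - ent μ Y ≤ ∑ i ∈ S, (ent μ (fun t => (X i t, Y t)) - ent μ Y) := by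
    intro S
    induction S using Finset.induction_on with
    | empty => exact sub_nonpos.2 (ent_mono h fun s t e => by simp [e])
    | insert i S hi ih =>
      rw [sum_insert hi]
      have := submod h (X := fun t => (X i t, Y t))
        (Y := fun t => (fun i => if i ∈ S then some (X i t) else none, Y t)) (U := Y)
        (V := fun t => (fun j => if j ∈ insert i S then some (X j t) else none, Y t))
        (fun s t e => congrArg Prod.snd e) (fun s t e => congrArg Prod.snd e) fun s t e e' => by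
          refine Prod.ext (funext fun j => ?_) (Prod.ext_iff.1 e).2
          by_cases hj : j = i
          · subst hj
            simpa using (Prod.ext_iff.1 e).1
          · simpa [hj] using congrFun (congrArg Prod.fst e') j
      linarith
  refine le_trans (sub_le_sub_right (ent_mono h fun s t e => ?_) _) (key univ)
  refine Prod.ext (funext fun i => ?_) (Prod.ext_iff.1 e).2
  simpa using congrFun (congrArg Prod.fst e) i

/-- measure preserving maps -/
def Pres (μ' : T' → ℝ) (μ : T → ℝ) (ϖ : T' → T) : Prop :=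
  ∀ φ : T → ℝ, ∑ x, μ' x * φ (ϖ x) = ∑ t, μ t * φ t

theorem pr_eq (μ : T → ℝ) (X : T → α) (a : α) [∀ t, Decidable (X t = a)] :
    pr μ X a = ∑ t, μ t * if X t = a then 1 else 0 :=
  sum_congr rfl fun t _ => by by_cases h : X t = a <;> simp [h]

theorem Pres.pr {μ' : T' → ℝ} {ϖ : T' → T} (h : Pres μ' μ ϖ) (X : T → α) (a : α) :
    pr μ' (fun x => X (ϖ x)) a = pr μ X a := by
  classical
  rw [pr_eq, pr_eq, h fun t => if X t = a then 1 else 0]

theorem Pres.ent {μ' : T' → ℝ} {ϖ : T' → T} (h : Pres μ' μ ϖ) (X : T → α) :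
    ent μ' (fun x => X (ϖ x)) = ent μ X := by
  simp only [P064.ent, h.pr]
  rw [h fun t => log (P064.pr μ X (X t))]

open Classical in
/-- conditional expectation -/
def ce (μ : T → ℝ) (Y : T → β) (φ : T → ℝ) (b : β) : ℝ :=
  (∑ t, if Y t = b then μ t * φ t else 0) / pr μ Y b

theorem tower (h : Law μ) (Y : T → β) (φ : T → ℝ) (χ : β → ℝ) :
    ∑ t, μ t * (φ t * χ (Y t)) = ∑ t, μ t * (ce μ Y φ (Y t) * χ (Y t)) := by
  classical
  rw [sum_eq_sum_image Y fun b => ce μ Y φ b * χ b,
    ← sum_fiberwise_of_maps_to (s := univ) (t := univ.image Y) (g := Y)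
      fun t _ => mem_image_of_mem _ (mem_univ t)]
  refine sum_congr rfl fun b hb => ?_
  obtain ⟨s, -, rfl⟩ := mem_image.1 hb
  have := pr_pos h Y s
  rw [ce, ← mul_assoc, mul_div_cancel₀ _ this.ne', sum_mul, sum_filter]
  refine sum_congr rfl fun t _ => ?_
  by_cases e : Y t = Y s <;> simp [e, mul_assoc]

theorem ce_nonneg (h : Law μ) (Y : T → β) {φ : T → ℝ} (hφ : ∀ t, 0 ≤ φ t) (b : β) :
    0 ≤ ce μ Y φ b :=
  div_nonneg (sum_nonneg fun t _ => by
    split_ifs; exacts [mul_nonneg (h.pos t).le (hφ t), le_rfl]) (pr_nonneg h _ _)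

theorem ce_le_one (h : Law μ) (Y : T → β) {φ : T → ℝ} (hφ : ∀ t, φ t ≤ 1) (b : β) :
    ce μ Y φ b ≤ 1 :=
  div_le_one_of_le₀ (sum_le_sum fun t _ => by
    split_ifs; exacts [mul_le_of_le_one_right (h.pos t).le (hφ t), le_rfl]) (pr_nonneg h _ _)

/-- two conditionally independent copies -/
abbrev Two (Y : T → β) : Type := {x : T × T // Y x.1 = Y x.2}

open Classical in
instance (Y : T → β) : Fintype (Two Y) := Subtype.fintype _

/-- the law of two conditionally independent copies -/
def two (μ : T → ℝ) (Y : T → β) (x : Two Y) : ℝ := μ x.1.1 * μ x.1.2 / pr μ Y (Y x.1.1)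

theorem sum_two (Y : T → β) (φ ψ : T → ℝ) :
    ∑ x : Two Y, two μ Y x * (φ x.1.1 * ψ x.1.2) = ∑ s, μ s * (φ s * ce μ Y ψ (Y s)) := by
  classical
  unfold two
  rw [← sum_subtype (univ.filter fun x : T × T => Y x.1 = Y x.2) (by simp)
    fun x : T × T => μ x.1 * μ x.2 / pr μ Y (Y x.1) * (φ x.1 * ψ x.2), sum_filter,
    Fintype.sum_prod_type]
  refine sum_congr rfl fun s _ => ?_
  rw [ce, sum_div, mul_sum, mul_sum]
  refine sum_congr rfl fun t _ => ?_
  by_cases e : Y t = Y s
  · simp only [e, if_true]; ring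
  · simp [e, Ne.symm e]

theorem ce_one (h : Law μ) (Y : T → β) (t : T) : ce μ Y (fun _ => 1) (Y t) = 1 := by
  simp only [ce, mul_one]
  exact div_self (pr_pos h Y t).ne'

theorem pres_fst (h : Law μ) (Y : T → β) : Pres (two μ Y) μ fun x => x.1.1 := fun φ => by
  simpa [ce_one h] using sum_two (μ := μ) Y φ fun _ => 1

theorem pres_snd (h : Law μ) (Y : T → β) : Pres (two μ Y) μ fun x => x.1.2 := fun φ => by
  have h1 := sum_two (μ := μ) Y (fun _ => 1) φ
  have h2 := tower h Y φ fun _ => 1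
  simp only [one_mul, mul_one] at h1 h2
  rw [h1, h2]

theorem law_two (h : Law μ) (Y : T → β) : Law (two μ Y) :=
  ⟨fun x => div_pos (mul_pos (h.pos _) (h.pos _)) (pr_pos h Y _), by
    simpa [h.sum] using pres_fst h Y fun _ => 1⟩

theorem ent_two (h : Law μ) (Y : T → β) (X : T → α) :
    ent (two μ Y) (fun x => (X x.1.1, X x.1.2, Y x.1.1)) =
      2 * ent μ (fun t => (X t, Y t)) - ent μ Y := by
  classical
  set Z : T → α × β := fun t => (X t, Y t) with hZ
  have h1 : ∀ x : Two Y, log (pr (two μ Y) (fun x => (X x.1.1, X x.1.2, Y x.1.1))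
      (X x.1.1, X x.1.2, Y x.1.1)) =
      log (pr μ Z (Z x.1.1)) + log (pr μ Z (Z x.1.2)) - log (pr μ Y (Y x.1.1)) := by
    intro x
    rw [← log_mul (pr_pos h Z _).ne' (pr_pos h Z _).ne', ← log_div
      (mul_pos (pr_pos h Z _) (pr_pos h Z _)).ne' (pr_pos h Y _).ne']
    congr 1
    have h2 := sum_two (μ := μ) Y (fun s => if Z s = Z x.1.1 then 1 else 0)
      (fun s => if Z s = Z x.1.2 then 1 else 0)
    rw [pr_eq, pr_eq μ Z (Z x.1.1), mul_div_assoc, sum_mul]
    refine Eq.trans (sum_congr rfl fun y _ => ?_) (h2.trans (sum_congr rfl fun s _ => ?_))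
    · congr 1
      have e1 := x.2
      have e2 := y.2
      simp only [hZ, Prod.mk.injEq]
      by_cases a1 : X y.1.1 = X x.1.1 <;> by_cases a2 : X y.1.2 = X x.1.2 <;>
        by_cases a3 : Y y.1.1 = Y x.1.1 <;> simp [a1, a2, a3, ← e1, ← e2]
    · by_cases e : Z s = Z x.1.1
      · rw [if_pos e, one_mul, mul_one, show Y s = Y x.1.1 from congrArg Prod.snd e, ce]
        congr 2
        refine sum_congr rfl fun t _ => ?_
        by_cases e' : Z t = Z x.1.2
        · simp [e', (show Y t = Y x.1.2 from congrArg Prod.snd e').trans x.2.symm]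
        · simp [e']
      · simp [e]
  simp only [ent, h1, mul_sub, mul_add, sum_sub_distrib, sum_add_distrib]
  rw [pres_fst h Y fun t => log (pr μ Z (Z t)), pres_snd h Y fun t => log (pr μ Z (Z t)),
    pres_fst h Y fun t => log (pr μ Y (Y t))]
  ring

end

end Vale.Agent.P064
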