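import Vale.Agent.P064.Ent

/-! Entropy after a uniformly random group element. -/

namespace Vale.Agent.P064

open Finset Real
open scoped Pointwise

noncomputable section

variable {T T' α β γ δ : Type} [Fintype T] [Fintype T'] {μ : T → ℝ}
variable (Γ : Type) [Group Γ] [Fintype Γ]

/-- product with the uniform law on the group -/
def lawG (μ : T → ℝ) (x : Γ × T) : ℝ := μ x.2 / Fintype.card Γ

/-- entropy of a randomly moved variable -/
def entG [SMul Γ α] (μ : T → ℝ) (X : T → α) : ℝ := ent (lawG Γ μ) fun x => x.1 • X x.2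

/-- equivariant determination -/
def Det [SMul Γ α] [SMul Γ β] (X : T → α) (U : T → β) : Prop :=
  ∀ (g : Γ) s t, g • X s = X t → g • U s = U t

theorem cardG_pos : (0 : ℝ) < Fintype.card Γ := by exact_mod_cast Fintype.card_pos

omit [Group Γ] in
theorem sum_lawG (φ : Γ × T → ℝ) :
    ∑ x, lawG Γ μ x * φ x = ∑ t, μ t * ((∑ g, φ (g, t)) / Fintype.card Γ) := by
  rw [Fintype.sum_prod_type, sum_comm]
  refine sum_congr rfl fun t _ => ?_
  rw [sum_div, mul_sum]
  exact sum_congr rfl fun g _ => by unfold lawG; ring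

theorem pres_G : Pres (lawG Γ μ) μ Prod.snd := fun φ => by
  have := cardG_pos Γ
  rw [sum_lawG]
  refine sum_congr rfl fun t _ => ?_
  simp only [sum_const, card_univ, nsmul_eq_mul]
  field_simp

theorem law_G (h : Law μ) : Law (lawG Γ μ) :=
  ⟨fun x => div_pos (h.pos _) (cardG_pos Γ), by simpa [h.sum] using pres_G Γ (μ := μ) fun _ => 1⟩

omit [Group Γ] in
theorem Pres.entG [SMul Γ α] {μ' : T' → ℝ} {ϖ : T' → T} (h : Pres μ' μ ϖ) (X : T → α) :
    entG Γ μ' (fun x => X (ϖ x)) = entG Γ μ X := by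
  have : Pres (lawG Γ μ') (lawG Γ μ) fun x => (x.1, ϖ x.2) := fun φ => by
    rw [sum_lawG, sum_lawG, h fun t => (∑ g, φ (g, t)) / Fintype.card Γ]
  exact this.ent fun x => x.1 • X x.2

theorem ent_pair_G (h : Law μ) (X : T → α) :
    ent (lawG Γ μ) (fun x => (x.1, X x.2)) = log (Fintype.card Γ) + ent μ X := by
  classical
  have h1 : ∀ x : Γ × T, log (pr (lawG Γ μ) (fun x => (x.1, X x.2)) (x.1, X x.2)) =
      log (pr μ X (X x.2)) - log (Fintype.card Γ) := by
    intro x
    rw [← log_div (pr_pos h X _).ne' (cardG_pos Γ).ne', pr_eq, pr_eq, sum_lawG, sum_div]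
    congr 1
    refine sum_congr rfl fun t _ => ?_
    by_cases e : X t = X x.2 <;> simp [e, div_eq_mul_inv]
  simp only [ent, h1, mul_sub, sum_sub_distrib, ← sum_mul, (law_G Γ h).sum]
  rw [pres_G Γ fun t => log (pr μ X (X t))]
  ring

variable {Γ}

omit [Fintype Γ] [Fintype T] in
theorem Det.ker [MulAction Γ α] [MulAction Γ β] {X : T → α} {U : T → β} (h : Det Γ X U)
    (x y : Γ × T) (e : x.1 • X x.2 = y.1 • X y.2) : x.1 • U x.2 = y.1 • U y.2 := by
  rw [← inv_smul_eq_iff, smul_smul] at e ⊢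
  exact h _ _ _ e

theorem entG_mono [MulAction Γ α] [MulAction Γ β] (h : Law μ) {X : T → α} {U : T → β}
    (hh : Det Γ X U) : entG Γ μ U ≤ entG Γ μ X := ent_mono (law_G Γ h) hh.ker

theorem entG_congr [MulAction Γ α] [MulAction Γ β] (h : Law μ) {X : T → α} {U : T → β}
    (h1 : Det Γ X U) (h2 : Det Γ U X) : entG Γ μ X = entG Γ μ U :=
  le_antisymm (entG_mono h h2) (entG_mono h h1)

theorem submodG [MulAction Γ α] [MulAction Γ β] [MulAction Γ γ] [MulAction Γ δ] (h : Law μ)
    {X : T → α} {Y : T → β} {U : T → γ} {V : T → δ} (h1 : Det Γ X U) (h2 : Det Γ Y U)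
    (h3 : Det Γ (fun t => (X t, Y t)) V) :
    entG Γ μ V + entG Γ μ U ≤ entG Γ μ X + entG Γ μ Y :=
  submod (law_G Γ h) h1.ker h2.ker fun x y e e' => h3.ker x y (Prod.ext e e')

/-- revealing the group element decreases conditional entropy -/
theorem cond_G [MulAction Γ α] [MulAction Γ β] (h : Law μ) {X : T → α} {U : T → β}
    (hh : Det Γ X U) : ent μ X - ent μ U ≤ entG Γ μ X - entG Γ μ U := by
  have := submod (law_G Γ h) (X := fun x => x.1 • X x.2) (Y := fun x => (x.1, U x.2))
    (U := fun x => x.1 • U x.2) (V := fun x => (x.1, X x.2)) hh.ker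
    (fun x y e => congrArg (fun z : Γ × β => z.1 • z.2) e) fun x y e e' => by
      have e1 : x.1 = y.1 := (Prod.ext_iff.1 e').1
      rw [e1] at e
      exact Prod.ext e1 (smul_left_cancel _ e)
  rw [ent_pair_G Γ h, ent_pair_G Γ h] at this
  unfold entG
  linarith

variable {E : Type} [DecidableEq E]

omit [DecidableEq E] in
/-- coding a subset of a known set -/
theorem ent_subset (h : Law μ) (W B : T → Finset E) (Y : T → β) (hW : ∀ t, W t ⊆ B t)
    (hB : ∀ s t, Y s = Y t → B s = B t) {b : ℝ} (hb : 0 < b) :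
    ent μ (fun t => (W t, Y t)) - ent μ Y ≤
      ∑ t, μ t * ((W t).card * log b + (B t).card / b) := by
  obtain ⟨φ, hφ⟩ : ∃ φ : β → Finset E, ∀ t, φ (Y t) = B t :=
    ⟨Function.extend Y B fun _ => ∅, fun t =>
      Function.FactorsThrough.extend_apply (fun s t => hB s t) _ t⟩
  refine (ent_le_code h W Y (fun y w => b⁻¹ ^ w.card / (1 + b⁻¹) ^ (φ y).card)
    (fun t => by positivity) fun y s hs => ?_).trans ?_
  · rw [← sum_div]
    refine div_le_one_of_le₀ ?_ (by positivity)
    rw [← prod_const, prod_one_add]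
    simp only [prod_const]
    refine sum_le_sum_of_subset_of_nonneg (fun w hw => ?_) fun _ _ _ => by positivity
    obtain ⟨t, rfl, rfl⟩ := hs w hw
    rw [hφ]
    exact mem_powerset.2 (hW t)
  · rw [← sum_neg_distrib]
    refine sum_le_sum fun t _ => ?_
    rw [← mul_neg, log_div (by positivity) (by positivity), log_pow, log_pow, log_inv, hφ]
    refine mul_le_mul_of_nonneg_left ?_ (h.pos t).le
    have h1 : log (1 + b⁻¹) ≤ b⁻¹ := by
      have := log_le_sub_one_of_pos (show 0 < 1 + b⁻¹ by positivity)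
      linarith
    have h2 := mul_le_mul_of_nonneg_left h1 (Nat.cast_nonneg (B t).card)
    rw [div_eq_mul_inv]
    linarith

variable [MulAction Γ E]

theorem entG_subset [MulAction Γ β] (h : Law μ) (W B : T → Finset E) (Y : T → β)
    (hW : ∀ t, W t ⊆ B t) (hB : Det Γ Y B) {b : ℝ} (hb : 0 < b) :
    entG Γ μ (fun t => (W t, Y t)) - entG Γ μ Y ≤
      ∑ t, μ t * ((W t).card * log b + (B t).card / b) := by
  have := ent_subset (law_G Γ h) (fun x => x.1 • W x.2) (fun x => x.1 • B x.2)
    (fun x => x.1 • Y x.2) (fun x => smul_finset_subset_smul_finset (hW _)) hB.ker hb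
  simp only [card_smul_finset] at this
  rw [pres_G Γ fun t => (W t).card * log b + (B t).card / b] at this
  exact this

variable (Γ) in
/-- the probability that a random translate of `V` lies in `B` -/
def nu (B V : Finset E) : ℝ :=
  (∑ g : Γ, if g • V ⊆ B then 1 else 0) / Fintype.card Γ

theorem nu_smul_right (B V : Finset E) (g : Γ) : nu Γ B (g • V) = nu Γ B V := by
  unfold nu
  congr 1
  exact Fintype.sum_equiv (Equiv.mulRight g) _ _ fun x => if_congr (by simp [smul_smul]) rfl rfl

theorem nu_smul_left (B V : Finset E) (g : Γ) : nu Γ (g • B) V = nu Γ B V := by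
  unfold nu
  congr 1
  exact Fintype.sum_equiv (Equiv.mulLeft g⁻¹) _ _ fun x =>
    if_congr (by simp [subset_smul_finset_iff, smul_smul]) rfl rfl

theorem nu_nonneg (B V : Finset E) : 0 ≤ nu Γ B V :=
  div_nonneg (sum_nonneg fun _ _ => by split_ifs <;> norm_num) (cardG_pos Γ).le

theorem nu_pos {B V : Finset E} (h : V ⊆ B) : 0 < nu Γ B V := by
  refine div_pos (lt_of_lt_of_le one_pos ?_) (cardG_pos Γ)
  have := single_le_sum (f := fun g : Γ => if g • V ⊆ B then (1 : ℝ) else 0)
    (fun _ _ => by split_ifs <;> norm_num) (mem_univ 1)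
  simpa [h] using this

theorem entG_ge (h : Law μ) (K : T → Finset E) :
    -∑ t, μ t * log (nu Γ (K t) (K t)) ≤ entG Γ μ K := by
  rw [← pres_G Γ fun t => log (nu Γ (K t) (K t))]
  refine neg_le_neg (sum_le_sum fun x _ => mul_le_mul_of_nonneg_left
    (log_le_log (pr_pos (law_G Γ h) _ x) ?_) ((law_G Γ h).pos x).le)
  rw [pr_eq, sum_lawG]
  refine le_of_le_of_eq (sum_le_sum fun t _ => mul_le_mul_of_nonneg_left ?_ (h.pos t).le)
    (by rw [← sum_mul, h.sum, one_mul])
  by_cases e : ∃ g : Γ, g • K t = x.1 • K x.2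
  · obtain ⟨g, hg⟩ := e
    rw [← nu_smul_left _ _ x.1, ← nu_smul_right _ _ x.1, ← hg, nu_smul_right]
    refine div_le_div_of_nonneg_right (sum_le_sum fun g' _ => ?_) (cardG_pos Γ).le
    by_cases e' : g' • K t = g • K t
    · rw [if_pos (e'.trans hg), if_pos e'.subset]
    · rw [if_neg fun e'' => e' (e''.trans hg.symm)]
      split_ifs <;> norm_num
  · rw [sum_eq_zero fun g _ => if_neg fun e' => e ⟨g, e'⟩, zero_div]
    exact nu_nonneg _ _

theorem entG_info (h : Law μ) (V A : T → Finset E) (hV : ∀ t, V t ⊆ A t) :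
    -∑ t, μ t * log (nu Γ (A t) (V t)) ≤
      entG Γ μ V - (entG Γ μ (fun t => (V t, A t)) - entG Γ μ A) := by
  have hG := law_G Γ h
  set W : Γ × T → Finset E := fun x => x.1 • V x.2 with hW
  have h1 := ent_le_code hG W (fun x => x.1 • A x.2)
    (fun a v => pr (lawG Γ μ) W v / nu Γ a v)
    (fun x => div_pos (pr_pos hG W x) (nu_pos (smul_finset_subset_smul_finset (hV _))))
    fun a s hs => by
      have h2 : ∑ v ∈ s, pr (lawG Γ μ) W v / nu Γ a v ≤
          ∑ x, lawG Γ μ x * ((if W x ⊆ a then 1 else 0) / nu Γ a (W x)) := by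
        simp only [pr_eq, sum_div]
        rw [sum_comm]
        refine sum_le_sum fun x _ => ?_
        simp only [mul_div_assoc, ← mul_sum]
        refine mul_le_mul_of_nonneg_left ?_ (hG.pos x).le
        by_cases hx : W x ∈ s
        · obtain ⟨y, e1, rfl⟩ := hs _ hx
          rw [sum_eq_single (W x) (fun v _ hv => by simp [hv.symm]) fun h' => absurd hx h',
            if_pos rfl, if_pos (e1 ▸ smul_finset_subset_smul_finset (hV _))]
        · rw [sum_eq_zero fun v hv => by simp [show W x ≠ v from fun e => hx (e ▸ hv)]]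
          exact div_nonneg (by split_ifs <;> norm_num) (nu_nonneg _ _)
      refine h2.trans ?_
      rw [sum_lawG]
      refine le_of_le_of_eq (sum_le_sum fun t _ => mul_le_of_le_one_right (h.pos t).le ?_) h.sum
      simp only [hW, nu_smul_right, ← sum_div]
      rw [div_right_comm]
      exact div_self_le_one (nu Γ a (V t))
  have h3 : ∀ x : Γ × T, log (pr (lawG Γ μ) W (W x) / nu Γ (x.1 • A x.2) (W x)) =
      log (pr (lawG Γ μ) W (W x)) - log (nu Γ (A x.2) (V x.2)) := fun x => by
    rw [log_div (pr_pos hG W x).ne' (nu_pos (smul_finset_subset_smul_finset (hV _))).ne',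
      nu_smul_left, nu_smul_right]
  simp only [h3, mul_sub, sum_sub_distrib] at h1
  rw [pres_G Γ fun t => log (nu Γ (A t) (V t))] at h1
  have h4 : entG Γ μ V = -∑ x, lawG Γ μ x * log (pr (lawG Γ μ) W (W x)) := rfl
  have h5 : entG Γ μ (fun t => (V t, A t)) =
      ent (lawG Γ μ) fun x => (W x, x.1 • A x.2) := rfl
  have h6 : entG Γ μ A = ent (lawG Γ μ) fun x => x.1 • A x.2 := rfl
  linarith

end

end Vale.Agent.P064
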