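import Vale.Agent.P064.EntG

/-! Stages of the doubling process and the potential bounding the entropy of overlaps. -/

namespace Vale.Agent.P064

open Finset Real
open scoped Pointwise

noncomputable section

variable {E : Type} [DecidableEq E]

/-- a random subset of `H` together with a history whose last entry is contained in it -/
structure Stage (H : Finset E) where
  T : Type
  fin : Fintype T
  μ : T → ℝ
  law : @Law T fin μ
  hist : T → ℕ → Finset E
  A : T → Finset E
  KA : ∀ t, hist t 0 ⊆ A t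
  AH : ∀ t, A t ⊆ H

namespace Stage

variable {H : Finset E}

instance (s : Stage H) : Fintype s.T := s.fin

variable (s : Stage H)

/-- two conditionally independent copies -/
def next : Stage H where
  T := Two s.hist
  fin := inferInstance
  μ := two s.μ s.hist
  law := law_two s.law s.hist
  hist x n := Nat.casesOn n (s.A x.1.1 ∩ s.A x.1.2) (s.hist x.1.1)
  A x := s.A x.1.1 ∪ s.A x.1.2
  KA _ := inter_subset_union
  AH _ := union_subset (s.AH _) (s.AH _)

/-- the first copy -/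
def p1 (x : s.next.T) : s.T := x.1.1

/-- the second copy -/
def p2 (x : s.next.T) : s.T := x.1.2

theorem hist_p2 (x : s.next.T) : s.hist (s.p2 x) = s.hist (s.p1 x) := x.2.symm

theorem pres1 : Pres s.next.μ s.μ s.p1 := pres_fst s.law s.hist

theorem pres2 : Pres s.next.μ s.μ s.p2 := pres_snd s.law s.hist

theorem next_A (x : s.next.T) : s.next.A x = s.A (s.p1 x) ∪ s.A (s.p2 x) := rfl

theorem next_K (x : s.next.T) : s.next.hist x 0 = s.A (s.p1 x) ∩ s.A (s.p2 x) := rfl

theorem next_hist (x : s.next.T) (n : ℕ) : s.next.hist x (n + 1) = s.hist (s.p1 x) n := rfl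

/-- expected size of the unknown part -/
def a : ℝ := ∑ t, s.μ t * (s.A t \ s.hist t 0).card

/-- expected size of the known part -/
def κ : ℝ := ∑ t, s.μ t * (s.hist t 0).card

/-- indicator of the unknown part -/
def I (e : E) (t : s.T) : ℝ := if e ∈ s.A t \ s.hist t 0 then 1 else 0

/-- conditional probability of the unknown part -/
def y (e : E) (t : s.T) : ℝ := ce s.μ s.hist (s.I e) (s.hist t)

/-- the potential -/
def Ψ : ℝ := ∑ e ∈ H, ∑ t, s.μ t * (s.y e t * (15 - 7 * √(s.y e t)))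

theorem I_nonneg (e : E) (t : s.T) : 0 ≤ s.I e t := by unfold I; split_ifs <;> norm_num

theorem I_le (e : E) (t : s.T) : s.I e t ≤ 1 := by unfold I; split_ifs <;> norm_num

theorem y_nonneg (e : E) (t : s.T) : 0 ≤ s.y e t := ce_nonneg s.law _ (s.I_nonneg e) _

theorem y_le (e : E) (t : s.T) : s.y e t ≤ 1 := ce_le_one s.law _ (s.I_le e) _

theorem y_pos {e : E} {t : s.T} (h : e ∈ s.A t \ s.hist t 0) : 0 < s.y e t := by
  classical
  refine div_pos (sum_pos' (fun t' _ => ?_) ⟨t, mem_univ _, ?_⟩) (pr_pos s.law _ t)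
  · split_ifs
    exacts [mul_nonneg (s.law.pos _).le (s.I_nonneg _ _), le_rfl]
  · simpa [I, h] using s.law.pos t

theorem a_nonneg : 0 ≤ s.a := sum_nonneg fun t _ => mul_nonneg (s.law.pos t).le (by positivity)

omit [DecidableEq E] in
theorem κ_nonneg : 0 ≤ s.κ := sum_nonneg fun t _ => mul_nonneg (s.law.pos t).le (by positivity)

theorem a_le : s.a ≤ H.card := by
  refine le_of_le_of_eq (sum_le_sum fun t _ => mul_le_mul_of_nonneg_left ?_ (s.law.pos t).le)
    (by rw [← sum_mul, s.law.sum, one_mul])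
  exact_mod_cast card_le_card (sdiff_subset.trans (s.AH t))

theorem a_add_κ : s.a + s.κ = ∑ t, s.μ t * (s.A t).card := by
  rw [a, κ, ← sum_add_distrib]
  refine sum_congr rfl fun t _ => ?_
  rw [← mul_add, ← card_sdiff_add_card_eq_card (s.KA t), Nat.cast_add]

theorem a_next : s.next.a + 2 * s.next.κ = 2 * (s.a + s.κ) := by
  have h1 := s.pres1 fun t => (s.A t).card
  have h2 := s.pres2 fun t => (s.A t).card
  rw [two_mul (s.a + s.κ), s.a_add_κ, two_mul, ← add_assoc, a_add_κ]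
  nth_rewrite 1 [← h1]
  rw [← h2, κ, ← sum_add_distrib, ← sum_add_distrib]
  refine sum_congr rfl fun x _ => ?_
  rw [← mul_add, ← mul_add]
  exact congrArg _ (by exact_mod_cast card_union_add_card_inter _ _)

theorem Ψ_nonneg : 0 ≤ s.Ψ := sum_nonneg fun e _ => sum_nonneg fun t _ =>
  mul_nonneg (s.law.pos t).le (mul_nonneg (s.y_nonneg e t) (by
    have := sqrt_le_one.2 (s.y_le e t); linarith))

theorem Ψ_le : s.Ψ ≤ 15 * s.a := by
  have h1 : s.a = ∑ e ∈ H, ∑ t, s.μ t * (s.I e t * 1) := by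
    rw [sum_comm]
    refine sum_congr rfl fun t _ => ?_
    rw [← mul_sum]
    congr 1
    simp only [I, mul_one, sum_boole]
    rw [filter_mem_eq_inter, inter_eq_right.2 (sdiff_subset.trans (s.AH t))]
  rw [h1, mul_sum]
  refine sum_le_sum fun e _ => ?_
  rw [tower s.law s.hist (s.I e) fun _ => 1, mul_sum]
  refine sum_le_sum fun t _ => ?_
  have := mul_nonneg (s.law.pos t).le (mul_nonneg (s.y_nonneg e t) (sqrt_nonneg (s.y e t)))
  unfold y at *
  nlinarith

theorem two_both (e : E) (χ : (ℕ → Finset E) → ℝ) :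
    ∑ x : s.next.T, s.next.μ x * (s.I e (s.p1 x) * χ (s.hist (s.p1 x)) * s.I e (s.p2 x)) =
      ∑ t, s.μ t * (s.y e t ^ 2 * χ (s.hist t)) := by
  refine (sum_two s.hist (fun t => s.I e t * χ (s.hist t)) (s.I e)).trans ?_
  simp only [mul_assoc (s.I e _)]
  rw [tower s.law s.hist (s.I e) fun b => χ b * ce s.μ s.hist (s.I e) b]
  exact sum_congr rfl fun t _ => by unfold y; ring

theorem two_one (e : E) (χ : (ℕ → Finset E) → ℝ) :
    ∑ x : s.next.T, s.next.μ x * (s.next.I e x * χ (s.hist (s.p1 x))) =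
      ∑ t, s.μ t * ((2 * s.y e t - 2 * s.y e t ^ 2) * χ (s.hist t)) := by
  have h1 := (s.pres1 fun t => s.I e t * χ (s.hist t)).trans (tower s.law _ _ _)
  have h2 := (s.pres2 fun t => s.I e t * χ (s.hist t)).trans (tower s.law _ _ _)
  have h3 := s.two_both e χ
  have h4 : ∀ x : s.next.T, s.next.μ x * (s.next.I e x * χ (s.hist (s.p1 x))) =
      s.next.μ x * (s.I e (s.p1 x) * χ (s.hist (s.p1 x))) +
        s.next.μ x * (s.I e (s.p2 x) * χ (s.hist (s.p2 x))) -
        2 * (s.next.μ x * (s.I e (s.p1 x) * χ (s.hist (s.p1 x)) * s.I e (s.p2 x))) := by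
    intro x
    have e1 : s.next.I e x = s.I e (s.p1 x) + s.I e (s.p2 x) - 2 * (s.I e (s.p1 x) * s.I e (s.p2 x)) := by
      have k1 := @s.KA (s.p1 x) e
      have k2 := @s.KA (s.p2 x) e
      rw [s.hist_p2] at k2
      simp only [I, next_A, next_K, s.hist_p2, mem_sdiff, mem_union, mem_inter]
      by_cases a0 : e ∈ s.hist (s.p1 x) 0
      · simp [a0, k1 a0, k2 a0]
      · by_cases a1 : e ∈ s.A (s.p1 x) <;> by_cases a2 : e ∈ s.A (s.p2 x) <;> simp [a0, a1, a2]
        norm_num
    rw [e1, s.hist_p2]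
    ring
  rw [sum_congr rfl fun x _ => h4 x, sum_sub_distrib, sum_add_distrib, ← mul_sum, h3, h1, h2,
    mul_sum, ← sum_add_distrib, ← sum_sub_distrib]
  exact sum_congr rfl fun t _ => by unfold y; ring

theorem pot_num {y : ℝ} (h0 : 0 ≤ y) (h1 : y ≤ 1) :
    y ^ 2 * (-2 * log y) + y ^ 2 ≤ 2 * (y * (15 - 7 * √y)) -
      ((2 * y - 2 * y ^ 2) * (15 - 147 / 10 * √y) + 7 / 2 * (7 / 5 * √y) ^ 3) := by
  rcases h0.eq_or_lt with rfl | h0
  · simp
  obtain ⟨r, hr, rfl⟩ : ∃ r, 0 < r ∧ y = r ^ 2 := ⟨√y, sqrt_pos.2 h0, (sq_sqrt h0.le).symm⟩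
  rw [sqrt_sq hr.le, log_pow]
  have h2 : r ≤ 1 := by nlinarith
  have h3 := log_le_sub_one_of_pos (inv_pos.2 hr)
  rw [log_inv] at h3
  have h4 : r ^ 4 * -log r ≤ r ^ 3 - r ^ 4 := by
    refine (mul_le_mul_of_nonneg_left h3 (by positivity)).trans (le_of_eq ?_)
    field_simp
  have h5 : r ^ 5 ≤ r ^ 4 := pow_le_pow_of_le_one hr.le h2 (by norm_num)
  have h6 : 0 ≤ r ^ 3 := by positivity
  have h7 : 0 ≤ r ^ 4 := by positivity
  push_cast
  nlinarith

theorem Ψ_next_le : s.next.Ψ ≤ ∑ e ∈ H, ∑ t, s.μ t *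
    ((2 * s.y e t - 2 * s.y e t ^ 2) * (15 - 147 / 10 * √(s.y e t)) +
      7 / 2 * (7 / 5 * √(s.y e t)) ^ 3) := by
  refine sum_le_sum fun e _ => ?_
  simp only [mul_add, sum_add_distrib]
  have h1 := s.two_one e fun b => 15 - 147 / 10 * √(ce s.μ s.hist (s.I e) b)
  have h2 := tower s.next.law s.next.hist (s.next.I e)
    fun b => 15 - 147 / 10 * √(ce s.μ s.hist (s.I e) fun n => b (n + 1))
  have h3 := s.pres1 fun t => 7 / 2 * (7 / 5 * √(s.y e t)) ^ 3
  refine le_of_le_of_eq ?_ (congrArg₂ (· + ·) (h2.symm.trans h1) h3)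
  rw [← sum_add_distrib]
  refine sum_le_sum fun x _ => ?_
  show _ ≤ s.next.μ x * (s.next.y e x * (15 - 147 / 10 * √(s.y e (s.p1 x)))) + s.next.μ x * _
  rw [← mul_add]
  refine mul_le_mul_of_nonneg_left ?_ (s.next.law.pos x).le
  have h4 := sq_sqrt (s.next.y_nonneg e x)
  have h5 := sqrt_nonneg (s.next.y e x)
  have h6 := sqrt_nonneg (s.y e (s.p1 x))
  generalize √(s.next.y e x) = r at h4 h5
  generalize √(s.y e (s.p1 x)) = u at h6
  rw [← h4]
  nlinarith [mul_nonneg (sq_nonneg (r - 7 / 5 * u)) (show 0 ≤ r + 7 / 10 * u by positivity)]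

/-- the entropy of the new overlap is paid by the potential -/
theorem pot : ent s.next.μ s.next.hist - ent s.μ s.hist ≤ 2 * s.Ψ - s.next.Ψ := by
  set Z : s.next.T → Finset E := fun x => (s.A (s.p1 x) ∩ s.A (s.p2 x)) \ s.hist (s.p1 x) 0 with hZ
  have hZH : ∀ x, Z x ⊆ H := fun x => sdiff_subset.trans (inter_subset_left.trans (s.AH _))
  have hy : ∀ x, ∀ e ∈ Z x, 0 < s.y e (s.p1 x) := fun x e he =>
    s.y_pos (sdiff_subset_sdiff inter_subset_left subset_rfl he)
  have h1 := ent_le_code s.next.law Z (fun x => s.hist (s.p1 x))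
    (fun b z => (∏ e ∈ z, ce s.μ s.hist (s.I e) b ^ 2) / ∏ e ∈ H, (1 + ce s.μ s.hist (s.I e) b ^ 2))
    (fun x => div_pos (prod_pos fun e he => pow_pos (hy x e he) 2)
      (prod_pos fun e _ => by positivity)) fun b S hS => by
      rw [← sum_div]
      refine div_le_one_of_le₀ ?_ (prod_nonneg fun e _ => by positivity)
      rw [prod_one_add]
      refine sum_le_sum_of_subset_of_nonneg (fun w hw => ?_)
        fun _ _ _ => prod_nonneg fun e _ => by positivity
      obtain ⟨t, rfl, -⟩ := hS w hw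
      exact mem_powerset.2 (hZH t)
  have h2 : ent s.next.μ s.next.hist ≤ ent s.next.μ fun x => (Z x, s.hist (s.p1 x)) := by
    refine ent_mono s.next.law fun x x' e => funext fun n => ?_
    have e1 : Z x = Z x' := (Prod.ext_iff.1 e).1
    have e2 : s.hist (s.p1 x) = s.hist (s.p1 x') := (Prod.ext_iff.1 e).2
    have k : ∀ x : s.next.T, s.next.hist x 0 = Z x ∪ s.hist (s.p1 x) 0 := fun x =>
      (sdiff_union_of_subset (subset_inter (s.KA _) (s.hist_p2 x ▸ s.KA _))).symm
    cases n with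
    | zero => rw [k, k, e1, e2]
    | succ n => exact congrFun e2 n
  have h3 : ent s.next.μ (fun x => s.hist (s.p1 x)) = ent s.μ s.hist :=
    s.pres1.ent s.hist
  have h4 : -∑ x, s.next.μ x * log ((∏ e ∈ Z x, s.y e (s.p1 x) ^ 2) /
      ∏ e ∈ H, (1 + s.y e (s.p1 x) ^ 2)) ≤
      ∑ e ∈ H, ∑ t, s.μ t * (s.y e t ^ 2 * (-2 * log (s.y e t)) + s.y e t ^ 2) := by
    simp only [mul_add, sum_add_distrib]
    have h5 := fun e => s.two_both e fun b => -2 * log (ce s.μ s.hist (s.I e) b)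
    have h6 := fun e => s.pres1 fun t => s.y e t ^ 2
    refine le_of_le_of_eq ?_ (congrArg₂ (· + ·) (sum_congr rfl fun e _ => h5 e)
      (sum_congr rfl fun e _ => h6 e))
    rw [sum_comm, sum_comm (s := H), ← sum_add_distrib, ← sum_neg_distrib]
    refine sum_le_sum fun x _ => ?_
    show _ ≤ ∑ e ∈ H, s.next.μ x * (s.I e (s.p1 x) * (-2 * log (s.y e (s.p1 x))) * s.I e (s.p2 x)) +
      ∑ e ∈ H, s.next.μ x * s.y e (s.p1 x) ^ 2
    rw [← mul_sum, ← mul_sum, ← mul_add, ← mul_neg]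
    refine mul_le_mul_of_nonneg_left ?_ (s.next.law.pos x).le
    rw [log_div (prod_pos fun e he => pow_pos (hy x e he) 2).ne'
      (prod_pos fun e _ => by positivity).ne', log_prod fun e he => (pow_pos (hy x e he) 2).ne',
      log_prod fun e _ => by positivity, neg_sub, sub_eq_add_neg, add_comm]
    refine add_le_add (le_of_eq ?_) (sum_le_sum fun e _ => ?_)
    · rw [← sum_neg_distrib, ← inter_eq_right.2 (hZH x), ← sum_ite_mem]
      refine sum_congr rfl fun e _ => ?_
      simp only [I, s.hist_p2, hZ, mem_sdiff, mem_inter, log_pow]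
      by_cases a0 : e ∈ s.hist (s.p1 x) 0 <;> by_cases a1 : e ∈ s.A (s.p1 x) <;>
        by_cases a2 : e ∈ s.A (s.p2 x) <;> simp [a0, a1, a2]
    · have := log_le_sub_one_of_pos (show 0 < 1 + s.y e (s.p1 x) ^ 2 by positivity)
      linarith
  have h7 : ∑ e ∈ H, ∑ t, s.μ t * (s.y e t ^ 2 * (-2 * log (s.y e t)) + s.y e t ^ 2) ≤
      2 * s.Ψ - s.next.Ψ := by
    refine le_trans ?_ (sub_le_sub_left s.Ψ_next_le _)
    rw [Ψ, mul_sum, ← sum_sub_distrib]
    refine sum_le_sum fun e _ => ?_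
    rw [mul_sum, ← sum_sub_distrib]
    refine sum_le_sum fun t _ => ?_
    have := mul_le_mul_of_nonneg_left (pot_num (s.y_nonneg e t) (s.y_le e t)) (s.law.pos t).le
    linarith
  exact le_trans (by linarith) (h1.trans (h4.trans h7))

end Stage

end

end Vale.Agent.P064
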